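import Vale.Agent.P112.H967.HL

/-!
# P091, Carleson-Hunt: the maximal function and decaying averages

`MF` is the uncentred maximal function of `Vale.Agent.P112.HL`.

* `ball_le_MF` : the integral over a ball containing `x` is at most its length times `MF f x`;
* `wt_le_MF` : averages against `(1 + |y - c| / l) ^ (-n)`, `n ≥ 2`;
* `wt_le_MF_far` : the part outside `ball c (2 ^ k * l)` gains `2 ^ (-k)`;
* `inter_ball_le` : good intervals;
* `major_subset` : the major subset;
* `MF_sq` : the bound in `L ^ 2`.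
-/

open MeasureTheory Set Metric
open scoped ENNReal NNReal Topology

namespace Vale.Agent.P091.CH.HL383

open Vale.Agent.P112.HL

/-- The decaying weight. -/
noncomputable def wt (n : ℕ) (c l y : ℝ) : ℝ := ((1 + |y - c| / l) ^ n)⁻¹

theorem wt_nonneg (n : ℕ) (c : ℝ) {l : ℝ} (hl : 0 < l) (y : ℝ) : 0 ≤ wt n c l y := by
  unfold wt; positivity

theorem wt_pos (n : ℕ) (c : ℝ) {l : ℝ} (hl : 0 < l) (y : ℝ) : 0 < wt n c l y := by
  unfold wt; positivity

theorem wt_le_one (n : ℕ) (c : ℝ) {l : ℝ} (hl : 0 < l) (y : ℝ) : wt n c l y ≤ 1 := by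
  unfold wt
  refine inv_le_one_of_one_le₀ (one_le_pow₀ ?_)
  have : 0 ≤ |y - c| / l := by positivity
  linarith

theorem wt_anti {m n : ℕ} (h : m ≤ n) (c : ℝ) {l : ℝ} (hl : 0 < l) (y : ℝ) :
    wt n c l y ≤ wt m c l y := by
  unfold wt
  have : 0 ≤ |y - c| / l := by positivity
  exact inv_anti₀ (by positivity) (pow_le_pow_right₀ (by linarith) h)

theorem measurable_wt (n : ℕ) (c l : ℝ) : Measurable (wt n c l) := by
  unfold wt
  fun_prop

/-- The integral over a ball containing `x`. -/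
theorem ball_le_MF (f : ℝ → ℝ≥0∞) {x c r : ℝ} (h : x ∈ ball c r) :
    ∫⁻ y in ball c r, f y ≤ ENNReal.ofReal (2 * r) * MF f x := by
  have hr : 0 < r := lt_of_le_of_lt dist_nonneg (mem_ball.1 h)
  have h1 := avg_le_MF f h
  have h2 : ENNReal.ofReal (2 * r) ≠ 0 := by
    simp only [ne_eq, ENNReal.ofReal_eq_zero, not_le]; linarith
  rw [ENNReal.div_le_iff_le_mul (Or.inl h2) (Or.inl ENNReal.ofReal_ne_top)] at h1
  rwa [mul_comm] at h1

/-- The weight is at most a sum of indicator functions of dyadic balls. -/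
theorem wt_le_sum {n : ℕ} (hn : 2 ≤ n) (c : ℝ) {l : ℝ} (hl : 0 < l) (y : ℝ) :
    ∃ k : ℕ, y ∈ ball c (2 ^ k * l) ∧ wt n c l y ≤ 4 * (1 / 4 : ℝ) ^ k := by
  classical
  have hex : ∃ k : ℕ, |y - c| / l < 2 ^ k := pow_unbounded_of_one_lt _ (by norm_num)
  obtain ⟨k, hk, hmin⟩ : ∃ k : ℕ, |y - c| / l < 2 ^ k ∧ ∀ m < k, ¬ |y - c| / l < 2 ^ m :=
    ⟨Nat.find hex, Nat.find_spec hex, fun m hm => Nat.find_min hex hm⟩
  refine ⟨k, ?_, ?_⟩
  · rw [mem_ball, Real.dist_eq]
    rwa [div_lt_iff₀ hl] at hk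
  · rcases Nat.eq_zero_or_pos k with h0 | h0
    · subst h0
      have := wt_le_one n c hl y
      simp only [pow_zero, mul_one]; linarith
    · obtain ⟨m, rfl⟩ : ∃ m, k = m + 1 := ⟨k - 1, by omega⟩
      have h1 := hmin m (Nat.lt_succ_self m)
      push Not at h1
      refine (wt_anti hn c hl y).trans ?_
      unfold wt
      have h2 : ((2 : ℝ) ^ m) ^ 2 ≤ (1 + |y - c| / l) ^ 2 :=
        pow_le_pow_left₀ (by positivity) (by linarith) 2
      have h3 : ((1 + |y - c| / l) ^ 2)⁻¹ ≤ (((2 : ℝ) ^ m) ^ 2)⁻¹ := inv_anti₀ (by positivity) h2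
      refine h3.trans (le_of_eq ?_)
      have e1 : ((2 : ℝ) ^ m) ^ 2 = 4 ^ m := by
        rw [← pow_mul, mul_comm, pow_mul]; norm_num
      rw [e1, pow_succ, one_div, inv_pow]
      ring

theorem wt_le_MF_meas {f : ℝ → ℝ≥0∞} (hf : Measurable f) {n : ℕ} (hn : 2 ≤ n) {c l A x : ℝ}
    (hl : 0 < l) (hx : |x - c| ≤ A * l) :
    ∫⁻ y, f y * ENNReal.ofReal (wt n c l y) ≤ ENNReal.ofReal (16 * (A + 1) * l) * MF f x := by
  have hA : 0 ≤ A := by
    by_contra h
    push Not at h
    have := abs_nonneg (x - c)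
    nlinarith
  have h1 : ∀ y, f y * ENNReal.ofReal (wt n c l y) ≤
      ∑' k : ℕ, ENNReal.ofReal (4 * (1 / 4 : ℝ) ^ k) *
        (ball c (2 ^ k * ((A + 1) * l))).indicator f y := by
    intro y
    obtain ⟨k, hk, hw⟩ := wt_le_sum hn c hl y
    refine le_trans ?_ (ENNReal.le_tsum k)
    have hk2 : y ∈ ball c (2 ^ k * ((A + 1) * l)) := by
      refine ball_subset_ball ?_ hk
      have : (0 : ℝ) < 2 ^ k := by positivity
      nlinarith [mul_nonneg this.le (mul_nonneg hA hl.le)]
    rw [indicator_of_mem hk2, mul_comm]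
    exact mul_le_mul' (ENNReal.ofReal_le_ofReal hw) le_rfl
  have h2 : ∀ k : ℕ, ∫⁻ y, (ball c (2 ^ k * ((A + 1) * l))).indicator f y ≤
      ENNReal.ofReal (2 * (2 ^ k * ((A + 1) * l))) * MF f x := by
    intro k
    rw [lintegral_indicator measurableSet_ball]
    refine ball_le_MF f ?_
    rw [mem_ball, Real.dist_eq]
    have : (1 : ℝ) ≤ 2 ^ k := one_le_pow₀ (by norm_num)
    nlinarith [mul_nonneg hA hl.le]
  have h4 : ∑' k : ℕ, ENNReal.ofReal (4 * (1 / 4 : ℝ) ^ k) *
      (ENNReal.ofReal (2 * (2 ^ k * ((A + 1) * l))) * MF f x) =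
      ENNReal.ofReal (16 * (A + 1) * l) * MF f x := by
    have e : ∀ k : ℕ, ENNReal.ofReal (4 * (1 / 4 : ℝ) ^ k) *
        (ENNReal.ofReal (2 * (2 ^ k * ((A + 1) * l))) * MF f x) =
        ENNReal.ofReal (8 * ((A + 1) * l) * (1 / 2) ^ k) * MF f x := by
      intro k
      rw [← mul_assoc, ← ENNReal.ofReal_mul (by positivity)]
      refine congrArg (fun z => ENNReal.ofReal z * MF f x) ?_
      have e2 : (1 / 4 : ℝ) ^ k * 2 ^ k = (1 / 2) ^ k := by
        rw [← mul_pow]; norm_num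
      calc 4 * (1 / 4 : ℝ) ^ k * (2 * (2 ^ k * ((A + 1) * l)))
          = 8 * ((A + 1) * l) * ((1 / 4 : ℝ) ^ k * 2 ^ k) := by ring
        _ = _ := by rw [e2]
    rw [tsum_congr e, ENNReal.tsum_mul_right]
    refine congrArg (· * MF f x) ?_
    rw [← ENNReal.ofReal_tsum_of_nonneg (fun k => by positivity)
      ((summable_geometric_of_lt_one (by norm_num) (by norm_num)).mul_left _), tsum_mul_left,
      tsum_geometric_of_lt_one (by norm_num) (by norm_num)]
    refine congrArg ENNReal.ofReal ?_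
    ring
  calc ∫⁻ y, f y * ENNReal.ofReal (wt n c l y)
      ≤ ∫⁻ y, ∑' k : ℕ, ENNReal.ofReal (4 * (1 / 4 : ℝ) ^ k) *
        (ball c (2 ^ k * ((A + 1) * l))).indicator f y := lintegral_mono h1
    _ = ∑' k : ℕ, ENNReal.ofReal (4 * (1 / 4 : ℝ) ^ k) *
        ∫⁻ y, (ball c (2 ^ k * ((A + 1) * l))).indicator f y := by
        rw [lintegral_tsum fun k =>
          ((hf.indicator measurableSet_ball).const_mul _).aemeasurable]
        exact tsum_congr fun k => lintegral_const_mul _ (hf.indicator measurableSet_ball)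
    _ ≤ ∑' k : ℕ, ENNReal.ofReal (4 * (1 / 4 : ℝ) ^ k) *
        (ENNReal.ofReal (2 * (2 ^ k * ((A + 1) * l))) * MF f x) :=
        ENNReal.tsum_le_tsum fun k => mul_le_mul' le_rfl (h2 k)
    _ = _ := h4

/-- Reduction of weighted lower integrals to measurable functions. -/
theorem exists_meas (f : ℝ → ℝ≥0∞) {w : ℝ → ℝ≥0∞} (hw : Measurable w) (h0 : ∀ y, w y ≠ 0)
    (ht : ∀ y, w y ≠ ∞) :
    ∃ h : ℝ → ℝ≥0∞, Measurable h ∧ (∀ y, h y ≤ f y) ∧
      ∫⁻ y, f y * w y = ∫⁻ y, h y * w y := by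
  obtain ⟨g, hg, hle, he⟩ := exists_measurable_le_lintegral_eq volume (fun y => f y * w y)
  refine ⟨fun y => g y / w y, hg.div hw, fun y => ?_, ?_⟩
  · refine ENNReal.div_le_of_le_mul (hle y)
  · rw [he]
    refine lintegral_congr fun y => ?_
    rw [ENNReal.div_mul_cancel (h0 y) (ht y)]

/-- **Decaying averages.** -/
theorem wt_le_MF (f : ℝ → ℝ≥0∞) {n : ℕ} (hn : 2 ≤ n) {c l A x : ℝ} (hl : 0 < l)
    (hx : |x - c| ≤ A * l) :
    ∫⁻ y, f y * ENNReal.ofReal (wt n c l y) ≤ ENNReal.ofReal (16 * (A + 1) * l) * MF f x := by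
  obtain ⟨h, hm, hle, he⟩ := exists_meas f (w := fun y => ENNReal.ofReal (wt n c l y))
    (measurable_wt n c l).ennreal_ofReal
    (fun y => by
      simp only [ne_eq, ENNReal.ofReal_eq_zero, not_le]
      exact wt_pos n c hl y) (fun y => ENNReal.ofReal_ne_top)
  rw [he]
  exact (wt_le_MF_meas hm hn hl hx).trans (mul_le_mul' le_rfl (MF_mono hle x))

/-- Far averages gain: the part outside `ball c (2 ^ k * l)`. -/
theorem wt_far_le_MF (f : ℝ → ℝ≥0∞) {n : ℕ} (hn : 2 ≤ n) {c l A x : ℝ} (hl : 0 < l)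
    (hx : |x - c| ≤ A * l) (m k : ℕ) :
    ∫⁻ y in (ball c (2 ^ k * l))ᶜ, f y * ENNReal.ofReal (wt (n + m) c l y) ≤
      ENNReal.ofReal ((1 / 2) ^ (k * m) * (16 * (A + 1) * l)) * MF f x := by
  have h1 : ∫⁻ y in (ball c (2 ^ k * l))ᶜ, f y * ENNReal.ofReal (wt (n + m) c l y) ≤
      ENNReal.ofReal ((1 / 2) ^ (k * m)) * ∫⁻ y, f y * ENNReal.ofReal (wt n c l y) := by
    rw [← lintegral_const_mul' _ _ ENNReal.ofReal_ne_top]
    refine (setLIntegral_mono_ae' measurableSet_ball.compl (ae_of_all _ fun y hy => ?_)).trans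
      (setLIntegral_le_lintegral _ _)
    rw [mul_left_comm]
    refine mul_le_mul' le_rfl ?_
    rw [← ENNReal.ofReal_mul (by positivity)]
    refine ENNReal.ofReal_le_ofReal ?_
    have hy1 : 2 ^ k * l ≤ |y - c| := by
      rw [mem_compl_iff, mem_ball, Real.dist_eq, not_lt] at hy
      exact hy
    have hy2 : (2 : ℝ) ^ k ≤ 1 + |y - c| / l := by
      rw [← le_div_iff₀ hl] at hy1
      linarith
    unfold wt
    rw [pow_add, mul_inv, mul_comm]
    refine mul_le_mul_of_nonneg_right ?_ (by positivity)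
    rw [pow_mul, ← inv_pow]
    refine pow_le_pow_left₀ (by positivity) ?_ m
    rw [one_div, inv_pow]
    exact inv_anti₀ (by positivity) hy2
  refine h1.trans ?_
  rw [ENNReal.ofReal_mul (by positivity), mul_assoc]
  exact mul_le_mul' le_rfl (wt_le_MF f hn hl hx)

/-- Good intervals. -/
theorem inter_ball_le {F : Set ℝ} (hF : MeasurableSet F) {x c r : ℝ} {a : ℝ≥0∞}
    (hx : x ∈ ball c r) (ha : MF (F.indicator 1) x ≤ a) :
    volume (F ∩ ball c r) ≤ ENNReal.ofReal (2 * r) * a := by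
  have h := (ball_le_MF (F.indicator (1 : ℝ → ℝ≥0∞)) hx).trans (mul_le_mul' le_rfl ha)
  rwa [lintegral_indicator hF, Measure.restrict_restrict hF, Pi.one_def, setLIntegral_one] at h

/-- **The major subset.** -/
theorem major_subset {F : Set ℝ} (hF : MeasurableSet F) (G : Set ℝ) (hG : volume G ≠ 0)
    (hGt : volume G ≠ ∞) :
    volume {x | 8 * volume F / volume G < MF (F.indicator 1) x} ≤ volume G / 2 := by
  have h := weak_MF (F.indicator (1 : ℝ → ℝ≥0∞)) (8 * volume F / volume G)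
  rw [lintegral_indicator hF, Pi.one_def, setLIntegral_one] at h
  rcases eq_or_ne (volume F) 0 with h0 | h0
  · -- the maximal function vanishes
    have h1 : ∀ x, MF (F.indicator (1 : ℝ → ℝ≥0∞)) x = 0 := by
      intro x
      unfold MF
      simp only [ENNReal.iSup_eq_zero]
      intro c r _
      rw [lintegral_indicator hF, Measure.restrict_restrict hF, Pi.one_def, setLIntegral_one,
        measure_mono_null inter_subset_left h0, ENNReal.zero_div]
    have h2 : {x | 8 * volume F / volume G < MF (F.indicator (1 : ℝ → ℝ≥0∞)) x} = ∅ := by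
      ext x
      simp only [mem_ofPred_eq, h1, not_lt_zero, mem_empty_iff_false]
    rw [Pi.one_def] at h2 ⊢
    rw [h2, measure_empty]
    exact zero_le
  · rcases eq_or_ne (volume F) ∞ with h3 | h3
    · have h4 : {x | 8 * volume F / volume G < MF (F.indicator (1 : ℝ → ℝ≥0∞)) x} = ∅ := by
        ext x
        simp only [mem_ofPred_eq, h3, mem_empty_iff_false, iff_false, not_lt]
        rw [ENNReal.mul_top (by norm_num), ENNReal.top_div, if_neg hGt]
        exact le_top
      rw [Pi.one_def] at h4 ⊢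
      rw [h4, measure_empty]
      exact zero_le
    · set V := volume {x | 8 * volume F / volume G < MF (F.indicator fun _ => 1) x} with hV
      have h5 : 8 * volume F / volume G * V ≤ 4 * volume F := h
      have h6 : volume F * (8 * V) ≤ volume F * (4 * volume G) := by
        calc volume F * (8 * V) = 8 * volume F / volume G * V * volume G := by
              rw [mul_right_comm, ENNReal.div_mul_cancel hG hGt]; ring
          _ ≤ 4 * volume F * volume G := mul_le_mul' h5 le_rfl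
          _ = _ := by ring
      have h7 : 8 * V ≤ 4 * volume G := (ENNReal.mul_le_mul_iff_right h0 h3).1 h6
      change V ≤ volume G / 2
      rw [ENNReal.le_div_iff_mul_le (Or.inl (by norm_num)) (Or.inl (by norm_num))]
      have h8 : 4 * (V * 2) ≤ 4 * volume G := by
        calc 4 * (V * 2) = 8 * V := by ring
          _ ≤ _ := h7
      exact (ENNReal.mul_le_mul_iff_right (by norm_num) (by norm_num)).1 h8

/-- Half of `G` is left. -/
theorem major_subset' {F : Set ℝ} (hF : MeasurableSet F) {G : Set ℝ} (hG : volume G ≠ 0)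
    (hGt : volume G ≠ ∞) :
    volume G / 2 ≤
      volume (G \ {x | 8 * volume F / volume G < MF (F.indicator 1) x}) := by
  have h1 := major_subset hF G hG hGt
  have h2 : volume G ≤ volume (G \ {x | 8 * volume F / volume G < MF (F.indicator 1) x}) +
      volume {x | 8 * volume F / volume G < MF (F.indicator 1) x} := by
    refine (measure_mono ?_).trans (measure_union_le _ _)
    intro x hx
    by_cases h : 8 * volume F / volume G < MF (F.indicator 1) x
    · exact Or.inr h
    · exact Or.inl ⟨hx, h⟩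
  have h3 : volume G / 2 + volume G / 2 ≤
      volume (G \ {x | 8 * volume F / volume G < MF (F.indicator 1) x}) + volume G / 2 := by
    rw [ENNReal.add_halves]
    exact h2.trans (add_le_add le_rfl h1)
  exact (ENNReal.add_le_add_iff_right (ENNReal.div_ne_top hGt (by norm_num))).1 h3

/-- The bound in `L ^ 2`. -/
theorem MF_sq {f : ℝ → ℝ≥0∞} (hf : Measurable f) :
    ∫⁻ x, MF f x ^ 2 ≤ 32 * ∫⁻ x, f x ^ 2 := by
  have h := strong_MF (p := 2) (by norm_num) hf
  have e : ∀ z : ℝ≥0∞, z ^ (2 : ℝ) = z ^ 2 := fun z => by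
    rw [show (2 : ℝ) = ((2 : ℕ) : ℝ) by norm_num, ENNReal.rpow_natCast]
  simp only [e] at h
  have e2 : ENNReal.ofReal (8 * 2 * 2 ^ ((2 : ℝ) - 1) / (2 - 1)) = 32 := by
    norm_num
  rwa [e2] at h

end Vale.Agent.P091.CH.HL383
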